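import Vale.Agent.P183.Sol

namespace Vale.Agent.Results.P183.SortedAlgebras

universe u

open Vale.Agent.P183

/-- Finite lattice representation problem: closure properties of the class of representable
lattices.
(1) The congruence lattice of every finite many-sorted algebra is representable.
(2) If the `L s` (`s ∈ S`, `S` finite) are representable then so is, for all finite sets `Q s` of
coordinates, the ordered set of all tuples `x s p ∈ L s` (`p ∈ Q s`) subject to any set `E` of
inequalities `x s p ≤ x s q` and any set `R` of conditions (`x s p ≤ b` or `a ≤ x t q`).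
(3) For every bounded lattice `L` and every finite nonempty partially ordered set `P` the lattice
of order preserving maps from `P` to `L` is representable if and only if `L` is. -/
theorem result :
    (∀ (P : Type) [Finite P] (A : P → Type) [∀ p, Finite (A p)] [∀ p, Nonempty (A p)]
      (m : ℕ) (ar : Fin m → ℕ) (src : ∀ i, Fin (ar i) → P) (tgt : Fin m → P)
      (op : ∀ i : Fin m, (∀ k, A (src i k)) → A (tgt i)),
      Representable {θ : ∀ p, Setoid (A p) // SCompat A ar src tgt op θ}) ∧
    (∀ (S : Type) [Finite S] (L : S → Type u) [∀ s, PartialOrder (L s)],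
      (∀ s, Representable (L s)) → ∀ (Q : S → Type) [∀ s, Finite (Q s)]
      (E : ∀ s, Q s → Q s → Prop) (R : ∀ (s : S) (_ : Q s) (t : S) (_ : Q t), L s → L t → Prop),
      Representable (Sol L Q E R)) ∧
    ∀ (L : Type u) [Lattice L] [BoundedOrder L] (P : Type) [PartialOrder P] [Finite P]
      [Nonempty P], Representable (P →o L) ↔ Representable L :=
  ⟨sorted, sol, fun L _ _ P _ _ _ => ⟨unpow L P, pow L P⟩⟩

end Vale.Agent.Results.P183.SortedAlgebras
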